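import Mathlib

/-!
Scaling of a product of standard Gaussian laws: the law of `r g` charges a set at most a little
more than the law of `g` does (Cauchy-Schwarz with the density).
-/

set_option autoImplicit false

open MeasureTheory ProbabilityTheory Real

namespace Vale.Agent.P146.H853

/-- The density of the law of `r g` with respect to the law of `g`. -/
noncomputable def sdens (r x : ℝ) : ℝ := r⁻¹ * exp (-((r⁻¹ ^ 2 - 1) / 2 * x ^ 2))

lemma sdens_nonneg {r : ℝ} (hr : 0 < r) (x : ℝ) : 0 ≤ sdens r x :=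
  mul_nonneg (inv_nonneg.2 hr.le) (exp_pos _).le

@[fun_prop]
lemma measurable_sdens (r : ℝ) : Measurable (sdens r) := by
  unfold sdens
  fun_prop

lemma one_le_inv_sq {r : ℝ} (hr : 0 < r) (hr1 : r ≤ 1) : 1 ≤ r⁻¹ ^ 2 := by
  have : 1 ≤ r⁻¹ := (one_le_inv₀ hr).2 hr1
  nlinarith

lemma sdens_le {r : ℝ} (hr : 0 < r) (hr1 : r ≤ 1) (x : ℝ) : sdens r x ≤ r⁻¹ := by
  have h1 := one_le_inv_sq hr hr1
  have : exp (-((r⁻¹ ^ 2 - 1) / 2 * x ^ 2)) ≤ 1 := by
    rw [exp_le_one_iff]
    have : 0 ≤ (r⁻¹ ^ 2 - 1) / 2 * x ^ 2 := by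
      have : 0 ≤ r⁻¹ ^ 2 - 1 := by linarith
      positivity
    linarith
  calc sdens r x ≤ r⁻¹ * 1 := mul_le_mul_of_nonneg_left this (inv_nonneg.2 hr.le)
    _ = r⁻¹ := mul_one _

lemma integrable_sdens {r : ℝ} (hr : 0 < r) (hr1 : r ≤ 1) :
    Integrable (sdens r) (gaussianReal 0 1) := by
  refine Integrable.of_bound (by fun_prop) r⁻¹ (Filter.Eventually.of_forall fun x => ?_)
  rw [Real.norm_eq_abs, abs_of_nonneg (sdens_nonneg hr x)]
  exact sdens_le hr hr1 x

lemma integrable_sdens_sq {r : ℝ} (hr : 0 < r) (hr1 : r ≤ 1) :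
    Integrable (fun x => sdens r x ^ 2) (gaussianReal 0 1) := by
  refine Integrable.of_bound (by fun_prop) (r⁻¹ ^ 2) (Filter.Eventually.of_forall fun x => ?_)
  rw [Real.norm_eq_abs, abs_of_nonneg (sq_nonneg _)]
  exact pow_le_pow_left₀ (sdens_nonneg hr x) (sdens_le hr hr1 x) 2

lemma gauss_scale {r : ℝ} (hr : 0 < r) : (gaussianReal 0 1).map (fun x => r * x)
    = (gaussianReal 0 1).withDensity (fun x => ENNReal.ofReal (sdens r x)) := by
  have hv : NNReal.mk (r ^ 2) (sq_nonneg r) ≠ 0 := by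
    intro h
    have := congrArg NNReal.toReal h
    exact pow_ne_zero 2 hr.ne' this
  rw [gaussianReal_map_const_mul, mul_zero, mul_one, gaussianReal_of_var_ne_zero _ one_ne_zero,
    gaussianReal_of_var_ne_zero _ hv, ← withDensity_mul _ (measurable_gaussianPDF 0 1)
      (by fun_prop)]
  congr 1
  funext x
  simp only [Pi.mul_apply, gaussianPDF_def]
  rw [← ENNReal.ofReal_mul (gaussianPDFReal_nonneg _ _ _)]
  congr 1
  simp only [gaussianPDFReal_def, sdens, sub_zero]
  show (√(2 * π * r ^ 2))⁻¹ * exp (-x ^ 2 / (2 * r ^ 2)) =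
    (√(2 * π * ((1 : NNReal) : ℝ)))⁻¹ * exp (-x ^ 2 / (2 * ((1 : NNReal) : ℝ))) *
      (r⁻¹ * exp (-((r⁻¹ ^ 2 - 1) / 2 * x ^ 2)))
  have e1 : √(2 * π * r ^ 2) = √(2 * π) * r := by
    rw [sqrt_mul (by positivity), sqrt_sq hr.le]
  have e2 : exp (-x ^ 2 / (2 * r ^ 2)) = exp (-x ^ 2 / 2) * exp (-((r⁻¹ ^ 2 - 1) / 2 * x ^ 2)) := by
    rw [← exp_add]
    congr 1
    field_simp
    ring
  rw [e1, e2, mul_inv, NNReal.coe_one, mul_one, mul_one]
  ring

lemma integral_sdens_sq {r : ℝ} (hr : 0 < r) (hr1 : r ≤ 1) :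
    ∫ x, sdens r x ^ 2 ∂(gaussianReal 0 1) = 1 / √(r ^ 2 * (2 - r ^ 2)) := by
  rw [integral_gaussianReal_eq_integral_smul one_ne_zero]
  have h1 := one_le_inv_sq hr hr1
  have hb : 0 < r⁻¹ ^ 2 - 1 / 2 := by linarith
  have e : ∀ x : ℝ, gaussianPDFReal 0 1 x • sdens r x ^ 2 =
      (√(2 * π))⁻¹ * r⁻¹ ^ 2 * exp (-(r⁻¹ ^ 2 - 1 / 2) * x ^ 2) := by
    intro x
    simp only [gaussianPDFReal_def, sdens, sub_zero, smul_eq_mul, NNReal.coe_one, mul_one]
    have : exp (-x ^ 2 / 2) * exp (-((r⁻¹ ^ 2 - 1) / 2 * x ^ 2)) ^ 2 =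
        exp (-(r⁻¹ ^ 2 - 1 / 2) * x ^ 2) := by
      rw [← exp_nat_mul, ← exp_add]
      congr 1
      push_cast
      ring
    rw [← this]
    ring
  simp only [e]
  rw [integral_const_mul, integral_gaussian]
  have e3 : π / (r⁻¹ ^ 2 - 1 / 2) = 2 * π * (r ^ 4 / (r ^ 2 * (2 - r ^ 2))) := by
    have hr2 : (2 - r ^ 2) ≠ 0 := by nlinarith
    have hb' : r⁻¹ ^ 2 - 1 / 2 = (2 - r ^ 2) / (2 * r ^ 2) := by
      field_simp
    rw [hb']
    field_simp
  have h2 : 0 < 2 - r ^ 2 := by nlinarith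
  have e4 : √(r ^ 4 / (r ^ 2 * (2 - r ^ 2))) = r ^ 2 / √(r ^ 2 * (2 - r ^ 2)) := by
    rw [sqrt_div (by positivity)]
    congr 1
    rw [show r ^ 4 = (r ^ 2) ^ 2 by ring, sqrt_sq (by positivity)]
  have h3 : 0 < √(2 * π) := sqrt_pos.2 (by positivity)
  have e5 : √(2 * π * (r ^ 4 / (r ^ 2 * (2 - r ^ 2)))) =
      √(2 * π) * (r ^ 2 / √(r ^ 2 * (2 - r ^ 2))) := by
    rw [sqrt_mul (by positivity : (0 : ℝ) ≤ 2 * π), e4]
  rw [e3, e5]
  generalize √(2 * π) = S at h3 ⊢
  generalize √(r ^ 2 * (2 - r ^ 2)) = T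
  field_simp

variable {ι : Type*} [Fintype ι]

lemma pi_scale {r : ℝ} (hr : 0 < r) (hr1 : r ≤ 1) :
    (Measure.pi fun _ : ι => gaussianReal 0 1).map (fun J => r • J)
      = (Measure.pi fun _ : ι => gaussianReal 0 1).withDensity
        (fun J => ENNReal.ofReal (∏ i, sdens r (J i))) := by
  have hsf : ∀ i : ι, SigmaFinite ((gaussianReal 0 1).map (fun x => r * x)) := by
    intro i
    rw [gaussianReal_map_const_mul]
    infer_instance
  have h1 : (Measure.pi fun _ : ι => gaussianReal 0 1).map (fun J => r • J)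
      = Measure.pi fun _ : ι => (gaussianReal 0 1).map (fun x => r * x) := by
    have e : (fun J : ι → ℝ => r • J) = fun J i => (fun x => r * x) (J i) := by
      funext J i; rfl
    rw [e, Measure.pi_map_pi (μ := fun _ : ι => gaussianReal 0 1) (f := fun _ x => r * x)
      (fun i => by fun_prop)]
  rw [h1]
  apply Measure.pi_eq
  intro s hs
  have hbox : MeasurableSet (Set.univ.pi s) := MeasurableSet.univ_pi hs
  rw [withDensity_apply _ hbox]
  have hint : Integrable (fun J : ι → ℝ => ∏ i, sdens r (J i))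
      (Measure.pi fun _ : ι => gaussianReal 0 1) := by
    apply Integrable.fintype_prod (f := fun _ x => sdens r x)
    intro i
    exact integrable_sdens hr hr1
  rw [← ofReal_integral_eq_lintegral_ofReal hint.integrableOn
    (Filter.Eventually.of_forall fun x => Finset.prod_nonneg fun i _ => sdens_nonneg hr _)]
  rw [← integral_indicator hbox]
  have hind : (Set.univ.pi s).indicator
        (fun J : ι → ℝ => ∏ i, sdens r (J i))
      = fun J => ∏ i, (s i).indicator (sdens r) (J i) := by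
    funext J
    by_cases hJ : J ∈ Set.univ.pi s
    · rw [Set.indicator_of_mem hJ]
      apply Finset.prod_congr rfl
      intro i _
      rw [Set.indicator_of_mem (hJ i (Set.mem_univ i))]
    · rw [Set.indicator_of_notMem hJ]
      simp only [Set.mem_univ_pi, not_forall] at hJ
      obtain ⟨i, hi⟩ := hJ
      symm
      apply Finset.prod_eq_zero (Finset.mem_univ i)
      rw [Set.indicator_of_notMem hi]
  rw [hind, integral_fintype_prod_eq_prod (𝕜 := ℝ)
    (fun (i : ι) (x : ℝ) => (s i).indicator (sdens r) x)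
    (μ := fun _ => gaussianReal 0 1)]
  rw [ENNReal.ofReal_prod_of_nonneg]
  · apply Finset.prod_congr rfl
    intro i _
    rw [gauss_scale hr, withDensity_apply _ (hs i), integral_indicator (hs i)]
    rw [ofReal_integral_eq_lintegral_ofReal]
    · exact (integrable_sdens hr hr1).integrableOn
    · exact Filter.Eventually.of_forall fun x => sdens_nonneg hr x
  · intro i _
    apply integral_nonneg
    intro x
    apply Set.indicator_nonneg
    intro x _
    exact sdens_nonneg hr x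

/-- Scaling against the density. -/
theorem scale_lower {r : ℝ} (hr : 0 < r) (hr1 : r ≤ 1) {A : Set (ι → ℝ)} (hA : MeasurableSet A) :
    ((Measure.pi fun _ : ι => gaussianReal 0 1).real {g | r • g ∈ A}) ^ 2 ≤
      (1 / √(r ^ 2 * (2 - r ^ 2))) ^ Fintype.card ι *
        (Measure.pi fun _ : ι => gaussianReal 0 1).real A := by
  set γ := Measure.pi fun _ : ι => gaussianReal 0 1 with hγ
  set D : (ι → ℝ) → ℝ := fun J => ∏ i, sdens r (J i) with hD
  have hDm : Measurable D := by
    rw [hD]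
    fun_prop
  have hD0 : ∀ J, 0 ≤ D J := fun J => Finset.prod_nonneg fun i _ => sdens_nonneg hr _
  have hDi : Integrable D γ := by
    rw [hD, hγ]
    apply Integrable.fintype_prod (f := fun _ x => sdens r x)
    intro i
    exact integrable_sdens hr hr1
  have hD2 : (fun J => D J ^ 2) = fun J : ι → ℝ => ∏ i, sdens r (J i) ^ 2 := by
    funext J
    rw [hD, Finset.prod_pow]
  have hDi2 : Integrable (fun J => D J ^ 2) γ := by
    rw [hD2, hγ]
    apply Integrable.fintype_prod (f := fun _ x => sdens r x ^ 2)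
    intro i
    exact integrable_sdens_sq hr hr1
  have hI2 : ∫ J, D J ^ 2 ∂γ = (1 / √(r ^ 2 * (2 - r ^ 2))) ^ Fintype.card ι := by
    rw [hD2, hγ, integral_fintype_prod_eq_prod (𝕜 := ℝ) (fun (_ : ι) (x : ℝ) => sdens r x ^ 2)
      (μ := fun _ => gaussianReal 0 1)]
    simp only [integral_sdens_sq hr hr1]
    rw [Finset.prod_const, Finset.card_univ]
  have hmap : γ.real {g | r • g ∈ A} = ∫ J in A, D J ∂γ := by
    have h1 : γ.real {g | r • g ∈ A} = (γ.map (fun J => r • J)).real A := by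
      rw [measureReal_def, measureReal_def, Measure.map_apply (by fun_prop) hA]
      rfl
    rw [h1, measureReal_def, hγ, pi_scale hr hr1, withDensity_apply _ hA,
      ← ofReal_integral_eq_lintegral_ofReal hDi.integrableOn
        (Filter.Eventually.of_forall fun x => hD0 x), ENNReal.toReal_ofReal]
    exact setIntegral_nonneg hA fun x _ => hD0 x
  rw [hmap]
  -- Cauchy-Schwarz by the square
  have hprob : IsProbabilityMeasure γ := by
    rw [hγ]
    infer_instance
  set a := ∫ J in A, D J ∂γ with ha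
  set m := γ.real A with hm
  have hm0 : 0 ≤ m := measureReal_nonneg
  have hle : ∫ J in A, D J ^ 2 ∂γ ≤ ∫ J, D J ^ 2 ∂γ :=
    setIntegral_le_integral hDi2 (Filter.Eventually.of_forall fun x => sq_nonneg _)
  have hq : ∀ t : ℝ, 0 ≤ (∫ J in A, D J ^ 2 ∂γ) - 2 * t * a + t ^ 2 * m := by
    intro t
    have h0 : 0 ≤ ∫ J in A, (D J - t) ^ 2 ∂γ := integral_nonneg fun x => sq_nonneg _
    have e : ∀ J, (D J - t) ^ 2 = D J ^ 2 - 2 * t * D J + t ^ 2 := fun J => by ring
    simp only [e] at h0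
    rw [integral_add, integral_sub, integral_const_mul, setIntegral_const, smul_eq_mul] at h0
    · rw [ha, hm]
      linarith
    · exact hDi2.integrableOn
    · exact (hDi.const_mul _).integrableOn
    · exact (hDi2.sub (hDi.const_mul _)).integrableOn
    · exact integrable_const _
  rw [← hI2]
  rcases hm0.eq_or_lt with h0 | h0
  · have ha0 : a = 0 := by
      rw [ha]
      have : γ A = 0 := by
        rw [hm, measureReal_def, eq_comm, ENNReal.toReal_eq_zero_iff] at h0
        exact h0.resolve_right (measure_ne_top _ _)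
      rw [setIntegral_measure_zero _ this]
    rw [ha0, ← h0]
    simp
  · have h1 := hq (a / m)
    have h2 : (∫ J in A, D J ^ 2 ∂γ) - 2 * (a / m) * a + (a / m) ^ 2 * m =
        (∫ J in A, D J ^ 2 ∂γ) - a ^ 2 / m := by
      field_simp
      ring
    rw [h2] at h1
    have h3 : a ^ 2 / m ≤ ∫ J, D J ^ 2 ∂γ := by linarith
    rwa [div_le_iff₀ h0] at h3

end Vale.Agent.P146.H853
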