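import Vale.Agent.P146.Defs
import Vale.Agent.P146.R2.H853.Scale

/-!
Lower bound for the lower tail of the free energy, by scaling the disorder.
-/

set_option autoImplicit false

open MeasureTheory ProbabilityTheory

namespace Vale.Agent.P146.H853

lemma hamiltonian_smul (n : ℕ) (r : ℝ) (g : Pair n → ℝ) (σ : Fin n → ℤˣ) :
    hamiltonian n (r • g) σ = r * hamiltonian n g σ := by
  unfold hamiltonian
  simp only [Pi.smul_apply, smul_eq_mul, Finset.mul_sum]
  refine Finset.sum_congr rfl fun p _ => ?_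
  ring

lemma partitionFn_pos (n : ℕ) (β : ℝ) (g : Pair n → ℝ) : 0 < partitionFn n β g := by
  unfold partitionFn
  exact Finset.sum_pos (fun σ _ => Real.exp_pos _) Finset.univ_nonempty

lemma card_spins (n : ℕ) : Fintype.card (Fin n → ℤˣ) = 2 ^ n := by
  simp

/-- Scaling the disorder down. -/
lemma free_scale (n : ℕ) (β : ℝ) {d : ℝ} (h0 : 0 ≤ d) (h1 : d < 1) (g : Pair n → ℝ) :
    freeEnergy n β ((1 - d) • g) ≤ (1 - d) * freeEnergy n β g + d * (n * Real.log 2) := by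
  have hr : 0 < 1 - d := by linarith
  have hN : (0 : ℝ) < 2 ^ n := by positivity
  have hZ := partitionFn_pos n β g
  have key := Real.arith_mean_le_rpow_mean (Finset.univ : Finset (Fin n → ℤˣ))
    (fun _ => ((2 : ℝ) ^ n)⁻¹) (fun σ => Real.exp ((1 - d) * (β * hamiltonian n g σ)))
    (fun _ _ => by positivity)
    (by rw [Finset.sum_const, Finset.card_univ, card_spins, nsmul_eq_mul]
        push_cast
        exact mul_inv_cancel₀ hN.ne')
    (fun _ _ => (Real.exp_pos _).le) (p := 1 / (1 - d))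
    (by rw [le_div_iff₀ hr]; linarith)
  have e1 : ∀ σ : Fin n → ℤˣ, Real.exp ((1 - d) * (β * hamiltonian n g σ)) ^ (1 / (1 - d)) =
      Real.exp (β * hamiltonian n g σ) := by
    intro σ
    rw [← Real.exp_mul]
    congr 1
    field_simp
  simp only [e1] at key
  rw [← Finset.mul_sum, ← Finset.mul_sum, one_div_one_div] at key
  have e2 : ∑ σ : Fin n → ℤˣ, Real.exp ((1 - d) * (β * hamiltonian n g σ)) =
      partitionFn n β ((1 - d) • g) := by
    unfold partitionFn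
    refine Finset.sum_congr rfl fun σ _ => ?_
    rw [hamiltonian_smul]
    congr 1
    ring
  have e3 : ∑ σ : Fin n → ℤˣ, Real.exp (β * hamiltonian n g σ) = partitionFn n β g := rfl
  rw [e2, e3] at key
  have hl := Real.log_le_log (mul_pos (inv_pos.2 hN) (partitionFn_pos n β _)) key
  rw [Real.log_mul (inv_pos.2 hN).ne' (partitionFn_pos n β _).ne', Real.log_rpow
    (mul_pos (inv_pos.2 hN) hZ), Real.log_mul (inv_pos.2 hN).ne' hZ.ne', Real.log_inv,
    Real.log_pow] at hl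
  unfold freeEnergy
  nlinarith

lemma card_pair_le (n : ℕ) : (Fintype.card (Pair n) : ℝ) ≤ (n : ℝ) ^ 2 / 2 := by
  have h : Fintype.card (Pair n × Bool) ≤ Fintype.card (Fin n × Fin n) := by
    refine Fintype.card_le_of_injective
      (fun x : Pair n × Bool => if x.2 then (x.1.1.1, x.1.1.2) else (x.1.1.2, x.1.1.1)) ?_
    rintro ⟨⟨⟨a, b⟩, hab⟩, s⟩ ⟨⟨⟨c, e⟩, hce⟩, t⟩ h
    simp only at hab hce
    rcases s <;> rcases t <;> simp at h ⊢
    · exact ⟨h.2, h.1⟩
    · obtain ⟨h1, h2⟩ := h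
      subst h1 h2
      exact absurd hab (not_lt.2 hce.le)
    · obtain ⟨h1, h2⟩ := h
      subst h1 h2
      exact absurd hab (not_lt.2 hce.le)
    · exact h
  rw [Fintype.card_prod, Fintype.card_prod, Fintype.card_bool, Fintype.card_fin] at h
  have h' : (Fintype.card (Pair n) : ℝ) * 2 ≤ (n : ℝ) * n := by exact_mod_cast h
  nlinarith

lemma scale_const {d : ℝ} (h0 : 0 ≤ d) (h1 : d ≤ 1 / 4) :
    1 / √((1 - d) ^ 2 * (2 - (1 - d) ^ 2)) ≤ Real.exp (8 / 3 * d ^ 2) := by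
  have hd2 : d ^ 2 ≤ 1 / 16 := by nlinarith
  have h2 : Real.exp (-(16 / 3 * d ^ 2)) ≤ (1 - d) ^ 2 * (2 - (1 - d) ^ 2) := by
    have h3 : 1 + 16 / 3 * d ^ 2 ≤ Real.exp (16 / 3 * d ^ 2) := by
      have := Real.add_one_le_exp (16 / 3 * d ^ 2)
      linarith
    have h4 : (1 - d) ^ 2 * (2 - (1 - d) ^ 2) = 1 - d ^ 2 * (2 - d) ^ 2 := by ring
    have h5 : d ^ 2 * (2 - d) ^ 2 ≤ d ^ 2 * 4 := by
      refine mul_le_mul_of_nonneg_left ?_ (sq_nonneg d)
      nlinarith
    rw [Real.exp_neg, h4]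
    have h6 : (0 : ℝ) < 1 + 16 / 3 * d ^ 2 := by positivity
    calc (Real.exp (16 / 3 * d ^ 2))⁻¹ ≤ (1 + 16 / 3 * d ^ 2)⁻¹ := inv_anti₀ h6 h3
      _ ≤ 1 - d ^ 2 * 4 := by
        rw [inv_le_iff_one_le_mul₀ h6]
        nlinarith [mul_nonneg (sq_nonneg d) (sub_nonneg.2 hd2)]
      _ ≤ 1 - d ^ 2 * (2 - d) ^ 2 := by linarith
  have h7 : Real.exp (-(8 / 3 * d ^ 2)) ≤ √((1 - d) ^ 2 * (2 - (1 - d) ^ 2)) := by
    refine Real.le_sqrt_of_sq_le ?_
    rw [← Real.exp_nat_mul]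
    refine le_trans (le_of_eq ?_) h2
    congr 1
    push_cast
    ring
  have h8 : 0 < √((1 - d) ^ 2 * (2 - (1 - d) ^ 2)) := (Real.exp_pos _).trans_le h7
  rw [div_le_iff₀ h8]
  calc (1 : ℝ) = Real.exp (8 / 3 * d ^ 2) * Real.exp (-(8 / 3 * d ^ 2)) := by
        rw [← Real.exp_add, add_neg_cancel, Real.exp_zero]
    _ ≤ _ := mul_le_mul_of_nonneg_left h7 (Real.exp_pos _).le

lemma measurable_freeEnergy (n : ℕ) (β : ℝ) : Measurable (freeEnergy n β) := by
  unfold freeEnergy partitionFn hamiltonian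
  fun_prop

/-- Lower bound for the lower tail by scaling. -/
theorem lower_of {n : ℕ} {β m d : ℝ} (h0 : 0 ≤ d) (h1 : d ≤ 1 / 4)
    (hm : 1 / 2 ≤ (disorder n).real {g | freeEnergy n β g ≤ m}) :
    1 / 4 * Real.exp (-(4 / 3 * d ^ 2 * n ^ 2)) ≤
      (disorder n).real {g | freeEnergy n β g ≤ (1 - d) * m + d * (n * Real.log 2)} := by
  set A : Set (Pair n → ℝ) := {g | freeEnergy n β g ≤ (1 - d) * m + d * (n * Real.log 2)} with hA
  have hAm : MeasurableSet A := measurableSet_le (measurable_freeEnergy n β) measurable_const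
  have hsub : {g | freeEnergy n β g ≤ m} ⊆ {g : Pair n → ℝ | (1 - d) • g ∈ A} := by
    intro g hg
    have h2 := free_scale n β h0 (by linarith) g
    have h3 : (1 - d) * freeEnergy n β g ≤ (1 - d) * m :=
      mul_le_mul_of_nonneg_left hg (by linarith)
    show freeEnergy n β ((1 - d) • g) ≤ _
    linarith
  have hprob : IsProbabilityMeasure (disorder n) := by
    unfold disorder
    infer_instance
  have h2 : 1 / 2 ≤ (disorder n).real {g : Pair n → ℝ | (1 - d) • g ∈ A} :=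
    hm.trans (measureReal_mono hsub (measure_ne_top _ _))
  have h3 := scale_lower (ι := Pair n) (r := 1 - d) (by linarith) (by linarith) hAm
  have h4 : (1 / √((1 - d) ^ 2 * (2 - (1 - d) ^ 2))) ^ Fintype.card (Pair n) ≤
      Real.exp (4 / 3 * d ^ 2 * n ^ 2) := by
    calc (1 / √((1 - d) ^ 2 * (2 - (1 - d) ^ 2))) ^ Fintype.card (Pair n)
        ≤ Real.exp (8 / 3 * d ^ 2) ^ Fintype.card (Pair n) :=
          pow_le_pow_left₀ (by positivity) (scale_const h0 h1) _
      _ = Real.exp (Fintype.card (Pair n) * (8 / 3 * d ^ 2)) := by rw [← Real.exp_nat_mul]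
      _ ≤ _ := by
        rw [Real.exp_le_exp]
        have := card_pair_le n
        nlinarith [mul_le_mul_of_nonneg_right this (by positivity : (0 : ℝ) ≤ 8 / 3 * d ^ 2)]
  have h5 : (1 / 2 : ℝ) ^ 2 ≤ Real.exp (4 / 3 * d ^ 2 * n ^ 2) * (disorder n).real A := by
    calc (1 / 2 : ℝ) ^ 2 ≤ ((disorder n).real {g : Pair n → ℝ | (1 - d) • g ∈ A}) ^ 2 :=
          pow_le_pow_left₀ (by norm_num) h2 2
      _ ≤ _ := h3
      _ ≤ _ := mul_le_mul_of_nonneg_right h4 measureReal_nonneg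
  rw [Real.exp_neg]
  have h6 := Real.exp_pos (4 / 3 * d ^ 2 * (n : ℝ) ^ 2)
  rw [← div_eq_mul_inv, div_le_iff₀ h6]
  linarith

/-- The cost of scaling. -/
theorem scale_prob {n : ℕ} {d : ℝ} (h0 : 0 ≤ d) (h1 : d ≤ 1 / 4) {A : Set (Pair n → ℝ)}
    (hA : MeasurableSet A) :
    ((disorder n).real {g | (fun p => (1 - d) * g p) ∈ A}) ^ 2 * Real.exp (-(2 * d ^ 2 * n ^ 2)) ≤
      (disorder n).real A := by
  have h3 : ((disorder n).real {g | (fun p => (1 - d) * g p) ∈ A}) ^ 2 ≤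
      (1 / √((1 - d) ^ 2 * (2 - (1 - d) ^ 2))) ^ Fintype.card (Pair n) * (disorder n).real A :=
    scale_lower (ι := Pair n) (r := 1 - d) (by linarith) (by linarith) hA
  have h4 : (1 / √((1 - d) ^ 2 * (2 - (1 - d) ^ 2))) ^ Fintype.card (Pair n) ≤
      Real.exp (2 * d ^ 2 * n ^ 2) := by
    calc (1 / √((1 - d) ^ 2 * (2 - (1 - d) ^ 2))) ^ Fintype.card (Pair n)
        ≤ Real.exp (8 / 3 * d ^ 2) ^ Fintype.card (Pair n) :=
          pow_le_pow_left₀ (by positivity) (scale_const h0 h1) _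
      _ = Real.exp (Fintype.card (Pair n) * (8 / 3 * d ^ 2)) := by rw [← Real.exp_nat_mul]
      _ ≤ _ := by
        rw [Real.exp_le_exp]
        have := card_pair_le n
        nlinarith [mul_le_mul_of_nonneg_right this (by positivity : (0 : ℝ) ≤ 8 / 3 * d ^ 2),
          mul_nonneg (sq_nonneg d) (sq_nonneg (n : ℝ))]
  have h6 := Real.exp_pos (2 * d ^ 2 * (n : ℝ) ^ 2)
  rw [Real.exp_neg, ← div_eq_mul_inv, div_le_iff₀ h6, mul_comm]
  exact h3.trans (mul_le_mul_of_nonneg_right h4 measureReal_nonneg)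

/-- The lower tail at distance `n s`, `s` at most `(p - log 2) / 8`. -/
theorem lower_ge {n : ℕ} {β p s : ℝ} (hp : Real.log 2 < p) (hs0 : 0 < s)
    (hs : s ≤ (p - Real.log 2) / 8)
    (hm : 1 / 2 ≤ (disorder n).real {g | freeEnergy n β g ≤ n * (p + s)})
    (hn : (p - Real.log 2) ^ 2 ≤ 2 * s ^ 2 * n ^ 2) :
    Real.exp (-(9 * s ^ 2 * n ^ 2 / (p - Real.log 2) ^ 2)) ≤
      (disorder n).real {g | freeEnergy n β g ≤ n * (p - s)} := by
  have hq : 0 < p - Real.log 2 := by linarith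
  have hprob : IsProbabilityMeasure (disorder n) := by
    unfold disorder
    infer_instance
  set q := p - Real.log 2 with hqd
  have h0 : 0 ≤ 2 * s / q := by positivity
  have h1 : 2 * s / q ≤ 1 / 4 := by
    rw [div_le_iff₀ hq]
    linarith
  have h2 := lower_of h0 h1 hm
  have hsub : {g | freeEnergy n β g ≤ (1 - 2 * s / q) * (n * (p + s)) +
      2 * s / q * (n * Real.log 2)} ⊆ {g | freeEnergy n β g ≤ n * (p - s)} := by
    intro g hg
    have hg' : freeEnergy n β g ≤ (1 - 2 * s / q) * (n * (p + s)) +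
      2 * s / q * (n * Real.log 2) := hg
    refine hg'.trans ?_
    have e1 : (1 - 2 * s / q) * (n * (p + s)) + 2 * s / q * (n * Real.log 2) =
        n * (p - s) - 2 * s / q * (n * s) := by
      have h3 : p = q + Real.log 2 := by rw [hqd]; ring
      have h4 : 2 * s / q * q = 2 * s := div_mul_cancel₀ _ hq.ne'
      generalize 2 * s / q = t at h4 ⊢
      rw [h3]
      linear_combination (-(n : ℝ)) * h4
    rw [e1]
    have : 0 ≤ 2 * s / q * (n * s) := by positivity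
    linarith
  refine le_trans ?_ (h2.trans (measureReal_mono hsub (measure_ne_top _ _)))
  set X := s ^ 2 * n ^ 2 / q ^ 2 with hX
  have hX0 : 1 / 2 ≤ X := by
    rw [hX, le_div_iff₀ (by positivity)]
    linarith
  have e2 : 9 * s ^ 2 * n ^ 2 / q ^ 2 = 9 * X := by rw [hX]; ring
  have e3 : 4 / 3 * (2 * s / q) ^ 2 * (n : ℝ) ^ 2 = 16 / 3 * X := by rw [hX]; ring_nf
  rw [e2, e3]
  have h4 : Real.exp (-(9 * X)) = Real.exp (-(11 / 3 * X)) * Real.exp (-(16 / 3 * X)) := by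
    rw [← Real.exp_add]
    congr 1
    ring
  rw [h4]
  refine mul_le_mul_of_nonneg_right ?_ (Real.exp_pos _).le
  have h5 : Real.exp (-(11 / 3 * X)) ≤ Real.exp (-(11 / 6)) := by
    rw [Real.exp_le_exp]
    linarith
  refine h5.trans ?_
  have h6 : (4 : ℝ) ≤ Real.exp (11 / 6) := by
    have h7 : Real.exp (11 / 6) = Real.exp 1 * Real.exp (5 / 6) := by
      rw [← Real.exp_add]
      norm_num
    have h8 := Real.exp_one_gt_d9
    have h9 := Real.add_one_le_exp (5 / 6 : ℝ)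
    rw [h7]
    nlinarith [Real.exp_pos (5 / 6 : ℝ)]
  rw [Real.exp_neg]
  calc (Real.exp (11 / 6))⁻¹ ≤ (4 : ℝ)⁻¹ := inv_anti₀ (by norm_num) h6
    _ = 1 / 4 := by norm_num

end Vale.Agent.P146.H853
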